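import Vale.Agent.P084.Main

/-!
Tingley's problem for finite dimensional norms that are smooth away from the origin and whose
square has positive definite Hessian away from the origin.
-/

open scoped ContDiff

namespace Vale.Agent.Results.P084.SmoothStronglyConvex

/-- Let `X`, `Y` be finite dimensional real normed spaces whose norms are `C^∞` on the complement
of the origin and such that the second derivative of `‖z‖ ^ 2` at every `x ≠ 0` is positive
definite. Then every surjective isometry of the unit sphere of `X` onto the unit sphere of `Y` is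
the restriction of a linear isometry of `X` onto `Y`. -/
theorem result {X Y : Type*} [NormedAddCommGroup X] [NormedSpace ℝ X] [FiniteDimensional ℝ X]
    [NormedAddCommGroup Y] [NormedSpace ℝ Y] [FiniteDimensional ℝ Y]
    (hX : ContDiffOn ℝ ∞ (fun x : X => ‖x‖) {0}ᶜ)
    (hY : ContDiffOn ℝ ∞ (fun y : Y => ‖y‖) {0}ᶜ)
    (hX2 : ∀ x : X, x ≠ 0 → ∀ v : X, v ≠ 0 →
      0 < fderiv ℝ (fderiv ℝ (fun z : X => ‖z‖ ^ 2)) x v v)
    (hY2 : ∀ y : Y, y ≠ 0 → ∀ v : Y, v ≠ 0 →
      0 < fderiv ℝ (fderiv ℝ (fun z : Y => ‖z‖ ^ 2)) y v v)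
    (f : Metric.sphere (0 : X) 1 → Metric.sphere (0 : Y) 1) (hf : Isometry f)
    (hs : Function.Surjective f) :
    ∃ T : X ≃ₗᵢ[ℝ] Y, ∀ x : Metric.sphere (0 : X) 1, T (x : X) = (f x : Y) :=
  Vale.Agent.P084.main_thm hX hY hX2 hY2 f hf hs

end Vale.Agent.Results.P084.SmoothStronglyConvex
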